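import Mathlib

/-!
# Derivations of a field of characteristic `p` with a prescribed value (S0010, packages Z + PB)

`exists_derivation_of_notMem`: if `E` is a subfield of `L` containing all `p`-th powers and
`x ∉ E`, there is a derivation `D` of `L` with `D = 0` on `E` and `D x = 1`.
-/

set_option autoImplicit false

namespace Crest.Agent.Helper31.S0010

open Polynomial IntermediateField

variable {L : Type*} [Field L] (p : ℕ) [Fact p.Prime] [CharP L p]

/-- The minimal polynomial over a subfield `M ⊇ L^p` of an element `t ∉ M` is `X^p - t^p`. -/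
theorem minpoly_eq_of_notMem (M : Subfield L) (hM : ∀ a : L, a ^ p ∈ M) {t : L} (ht : t ∉ M) :
    minpoly M t = X ^ p - C (⟨t ^ p, hM t⟩ : M) := by
  have hp : p.Prime := Fact.out
  have hirr : Irreducible (X ^ p - C (⟨t ^ p, hM t⟩ : M) : M[X]) := by
    apply X_pow_sub_C_irreducible_of_prime hp
    intro b hb
    apply ht
    have h1 : ((b : L)) ^ p = t ^ p := by
      have := congrArg Subtype.val hb
      simpa using this
    have h2 : (b : L) = t := frobenius_inj L p h1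
    rw [← h2]; exact b.2
  symm
  apply minpoly.eq_of_irreducible_of_monic hirr
  · simp only [aeval_def, eval₂_sub, eval₂_pow, eval₂_X, eval₂_C]
    exact sub_eq_zero.mpr rfl
  · exact monic_X_pow_sub_C _ hp.ne_zero

omit [CharP L p] in
theorem isIntegral_of_pow_mem (M : Subfield L) (hM : ∀ a : L, a ^ p ∈ M) (t : L) :
    IsIntegral M t := by
  have hp : p.Prime := Fact.out
  refine ⟨X ^ p - C (⟨t ^ p, hM t⟩ : M), monic_X_pow_sub_C _ hp.ne_zero, ?_⟩
  simp only [eval₂_sub, eval₂_pow, eval₂_X, eval₂_C]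
  exact sub_eq_zero.mpr rfl

theorem finrank_adjoin_of_notMem (M : Subfield L) (hM : ∀ a : L, a ^ p ∈ M) {t : L} (ht : t ∉ M) :
    Module.finrank M M⟮t⟯ = p := by
  have hp : p.Prime := Fact.out
  rw [adjoin.finrank (isIntegral_of_pow_mem p M hM t), minpoly_eq_of_notMem p M hM ht]
  exact natDegree_X_pow_sub_C


/-- Zorn: a maximal subfield containing `E` and avoiding `x`. -/
theorem exists_maximal_subfield (E : Subfield L) {x : L} (hx : x ∉ E) :
    ∃ M : Subfield L, E ≤ M ∧ x ∉ M ∧ ∀ N : Subfield L, M ≤ N → x ∉ N → N ≤ M := by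
  obtain ⟨M, hEM, hmax⟩ := zorn_le_nonempty₀ {M : Subfield L | E ≤ M ∧ x ∉ M} (by
    intro c hc hchain y hy
    refine ⟨sSup c, ⟨(hc hy).1.trans (le_sSup hy), ?_⟩, fun z hz => le_sSup hz⟩
    intro hmem
    obtain ⟨N, hN, hxN⟩ := (Subfield.mem_sSup_of_directedOn ⟨y, hy⟩ hchain.directedOn).1 hmem
    exact (hc hN).2 hxN) E ⟨le_rfl, hx⟩
  exact ⟨M, hEM, hmax.prop.2, fun N hMN hxN => hmax.le_of_ge ⟨hEM.trans hMN, hxN⟩ hMN⟩

/-- For a maximal `M` as above, `L = M(x)`. -/
theorem adjoin_eq_top_of_maximal (M : Subfield L) (hM : ∀ a : L, a ^ p ∈ M) {x : L} (hx : x ∉ M)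
    (hmax : ∀ N : Subfield L, M ≤ N → x ∉ N → N ≤ M) (w : L) : w ∈ M⟮x⟯ := by
  by_cases hw : w ∈ M
  · exact (M⟮x⟯).algebraMap_mem ⟨w, hw⟩
  · have hMN : M ≤ (M⟮w⟯).toSubfield := fun m hm => (M⟮w⟯).algebraMap_mem ⟨m, hm⟩
    have hxN : x ∈ M⟮w⟯ := by
      by_contra hxN
      exact hw (hmax _ hMN hxN (mem_adjoin_simple_self M w))
    have hle : M⟮x⟯ ≤ M⟮w⟯ := adjoin_simple_le_iff.2 hxN
    have : FiniteDimensional M M⟮w⟯ := adjoin.finiteDimensional (isIntegral_of_pow_mem p M hM w)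
    have heq : M⟮x⟯ = M⟮w⟯ := eq_of_le_of_finrank_eq hle (by
      rw [finrank_adjoin_of_notMem p M hM hx, finrank_adjoin_of_notMem p M hM hw])
    rw [heq]; exact mem_adjoin_simple_self M w

/-- **Package Z + PB (one variable).** If `E ⊇ L^p` is a subfield and `x ∉ E`, there is a
derivation of `L` vanishing on `E` with `D x = 1`. -/
theorem exists_derivation_of_notMem (E : Subfield L) (hE : ∀ a : L, a ^ p ∈ E) {x : L}
    (hx : x ∉ E) : ∃ D : Derivation ℤ L L, (∀ e ∈ E, D e = 0) ∧ D x = 1 := by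
  have hp : p.Prime := Fact.out
  obtain ⟨M, hEM, hxM, hmax⟩ := exists_maximal_subfield E hx
  have hM : ∀ a : L, a ^ p ∈ M := fun a => hEM (hE a)
  have hsurj : Function.Surjective (aeval x : M[X] →ₐ[M] L) := by
    intro w
    have h1 : w ∈ (M⟮x⟯).toSubalgebra := adjoin_eq_top_of_maximal p M hM hxM hmax w
    rw [adjoin_simple_toSubalgebra_of_isAlgebraic (isIntegral_of_pow_mem p M hM x).isAlgebraic,
      Algebra.adjoin_singleton_eq_range_aeval] at h1
    exact h1
  have hd : ∀ q : M[X], (aeval x : M[X] →ₐ[M] L) q = 0 →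
      (aeval x : M[X] →ₐ[M] L) ((derivative' : Derivation M M[X] M[X]) q) = 0 := by
    intro q hq
    obtain ⟨r, rfl⟩ := minpoly.dvd M x hq
    rw [minpoly_eq_of_notMem p M hM hxM]
    have hpL : (p : L) = 0 := CharP.cast_eq_zero L p
    simp only [derivative'_apply, derivative_mul, derivative_X_pow, derivative_C,
      sub_zero, map_add, map_mul, map_sub, map_pow, aeval_X, aeval_C, map_natCast, hpL, zero_mul]
    have : x ^ p - (algebraMap M L) ⟨x ^ p, hM x⟩ = 0 := sub_eq_zero.mpr rfl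
    rw [this]; ring
  let D : Derivation M L L := Derivation.liftOfSurjective hsurj hd
  refine ⟨D.restrictScalars ℤ, fun e he => ?_, ?_⟩
  · have : D (algebraMap M L ⟨e, hEM he⟩) = 0 := D.map_algebraMap _
    exact this
  · have h1 : D ((aeval x : M[X] →ₐ[M] L) X) = (aeval x : M[X] →ₐ[M] L) (derivative' X) :=
      Derivation.liftOfSurjective_apply hsurj hd X
    simpa using h1


/-! ### Subfields `E(x)`, exchange, kernels -/

/-- `E(x)`: the subfield generated by a subfield `E` and an element `x`. -/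
def adj (E : Subfield L) (x : L) : Subfield L := Subfield.closure ((E : Set L) ∪ {x})

theorem le_adj (E : Subfield L) (x : L) : E ≤ adj E x :=
  fun _ he => Subfield.subset_closure (Or.inl he)

theorem self_mem_adj (E : Subfield L) (x : L) : x ∈ adj E x :=
  Subfield.subset_closure (Or.inr rfl)

theorem adj_le {E F : Subfield L} {x : L} (hEF : E ≤ F) (hx : x ∈ F) : adj E x ≤ F := by
  apply Subfield.closure_le.2
  rintro s (hs | rfl)
  · exact hEF hs
  · exact hx

theorem adj_eq_self {E : Subfield L} {x : L} (hx : x ∈ E) : adj E x = E :=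
  le_antisymm (adj_le le_rfl hx) (le_adj E x)

theorem adj_eq_toSubfield (E : Subfield L) (x : L) : adj E x = (E⟮x⟯).toSubfield := by
  rw [IntermediateField.adjoin_toSubfield, adj]
  congr 2
  ext z
  simp only [Set.mem_range, Subtype.exists, SetLike.mem_coe]
  constructor
  · intro hz; exact ⟨z, hz, rfl⟩
  · rintro ⟨a, b, rfl⟩; exact b

theorem mem_adj_iff (E : Subfield L) (x w : L) : w ∈ adj E x ↔ w ∈ E⟮x⟯ := by
  rw [adj_eq_toSubfield]; rfl

/-- **Exchange.** If `E ⊇ L^p`, `w ∈ E(x)` and `w ∉ E`, then `x ∈ E(w)`. -/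
theorem exchange (E : Subfield L) (hE : ∀ a : L, a ^ p ∈ E) {x w : L} (hw : w ∈ adj E x)
    (hwE : w ∉ E) : x ∈ adj E w := by
  have hxE : x ∉ E := fun hx => hwE (by rwa [adj_eq_self hx] at hw)
  rw [mem_adj_iff] at hw ⊢
  have hle : E⟮w⟯ ≤ E⟮x⟯ := adjoin_simple_le_iff.2 hw
  have : FiniteDimensional E E⟮x⟯ := adjoin.finiteDimensional (isIntegral_of_pow_mem p E hE x)
  have heq : E⟮w⟯ = E⟮x⟯ := eq_of_le_of_finrank_eq hle (by
    rw [finrank_adjoin_of_notMem p E hE hwE, finrank_adjoin_of_notMem p E hE hxE])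
  rw [heq]; exact mem_adjoin_simple_self E x

omit [Fact p.Prime] in
/-- A derivation of a field of characteristic `p` kills `p`-th powers. -/
theorem deriv_pow_p (D : Derivation ℤ L L) (a : L) : D (a ^ p) = 0 := by
  rw [Derivation.leibniz_pow, ← Nat.cast_smul_eq_nsmul L, CharP.cast_eq_zero L p, zero_smul]

/-- A derivation vanishing on a set vanishes on the subfield it generates. -/
theorem deriv_eq_zero_of_mem_closure (D : Derivation ℤ L L) {S : Set L}
    (hS : ∀ s ∈ S, D s = 0) {w : L} (hw : w ∈ Subfield.closure S) : D w = 0 := by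
  induction hw using Subfield.closure_induction with
  | mem x hx => exact hS x hx
  | one => exact D.map_one_eq_zero
  | add x y _ _ hx hy => rw [map_add, hx, hy, add_zero]
  | neg x _ hx => rw [map_neg, hx, neg_zero]
  | inv x _ hx => rw [Derivation.leibniz_inv, hx, smul_zero]
  | mul x y _ _ hx hy => rw [Derivation.leibniz, hx, hy, smul_zero, smul_zero, add_zero]

theorem deriv_eq_zero_of_mem_adj (D : Derivation ℤ L L) {E : Subfield L} {x : L}
    (hE : ∀ e ∈ E, D e = 0) (hx : D x = 0) {w : L} (hw : w ∈ adj E x) : D w = 0 := by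
  refine deriv_eq_zero_of_mem_closure D ?_ hw
  rintro s (hs | rfl)
  · exact hE s hs
  · exact hx

/-- **Kernel.** If `E ⊇ L^p`, `D = 0` on `E`, `D x ≠ 0`, then the kernel of `D` on `E(x)` is `E`. -/
theorem mem_of_deriv_eq_zero (E : Subfield L) (hE : ∀ a : L, a ^ p ∈ E) (D : Derivation ℤ L L)
    (hDE : ∀ e ∈ E, D e = 0) {x : L} (hDx : D x ≠ 0) {w : L} (hw : w ∈ adj E x)
    (hDw : D w = 0) : w ∈ E := by
  by_contra hwE
  exact hDx (deriv_eq_zero_of_mem_adj D hDE hDw (exchange p E hE hw hwE))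

/-! ### The subfield `L^p`, `p`-independence, the pair of derivations -/

/-- The subfield `L^p` of `p`-th powers. -/
def pPow : Subfield L := (frobenius L p).fieldRange

theorem mem_pPow {a : L} : a ∈ pPow (L := L) p ↔ ∃ b : L, b ^ p = a := by
  simp [pPow, RingHom.mem_fieldRange, frobenius_def]

theorem pow_mem_pPow (a : L) : a ^ p ∈ pPow (L := L) p := (mem_pPow p).2 ⟨a, rfl⟩

theorem deriv_eq_zero_of_mem_pPow (D : Derivation ℤ L L) {a : L} (ha : a ∈ pPow (L := L) p) :
    D a = 0 := by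
  obtain ⟨b, rfl⟩ := (mem_pPow p).1 ha
  exact deriv_pow_p p D b

/-- `L^p(x)`. -/
def pAdj (x : L) : Subfield L := adj (pPow (L := L) p) x

/-- `L^p(x, y)`. -/
def pAdj₂ (x y : L) : Subfield L := adj (pAdj p x) y

theorem pPow_le_pAdj (x : L) : pPow (L := L) p ≤ pAdj p x := le_adj _ _

theorem self_mem_pAdj (x : L) : x ∈ pAdj p x := self_mem_adj _ _

theorem pAdj_le_pAdj₂ (x y : L) : pAdj p x ≤ pAdj₂ p x y := le_adj _ _

theorem pow_mem_pAdj (x a : L) : a ^ p ∈ pAdj p x := pPow_le_pAdj p x (pow_mem_pPow p a)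

/-- `x, y` are `p`-independent: `x ∉ L^p` and `y ∉ L^p(x)`. -/
def PIndep (x y : L) : Prop := x ∉ pPow (L := L) p ∧ y ∉ pAdj p x

theorem PIndep.symm {x y : L} (h : PIndep p x y) : PIndep p y x := by
  refine ⟨fun hy => h.2 (pPow_le_pAdj p x hy), fun hx => h.2 ?_⟩
  exact exchange p (pPow p) (pow_mem_pPow p) hx h.1

/-- **Package PB.** For a `p`-independent pair there are derivations `D₁ = ∂/∂x`, `D₂ = ∂/∂y`
of `L`. -/
theorem exists_derivation_pair {x y : L} (h : PIndep p x y) :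
    ∃ D₁ D₂ : Derivation ℤ L L, D₁ x = 1 ∧ D₁ y = 0 ∧ D₂ x = 0 ∧ D₂ y = 1 := by
  obtain ⟨D₂, h2E, h2y⟩ := exists_derivation_of_notMem p (pAdj p x) (pow_mem_pAdj p x) h.2
  obtain ⟨D₁, h1E, h1x⟩ :=
    exists_derivation_of_notMem p (pAdj p y) (pow_mem_pAdj p y) (PIndep.symm p h).2
  exact ⟨D₁, D₂, h1x, h1E y (self_mem_pAdj p y), h2E x (self_mem_pAdj p x), h2y⟩

section Consequences

variable {p}
variable {x y : L} {D₁ D₂ : Derivation ℤ L L}

/-- `D₂ = 0` on `L^p(x)` if `D₂ x = 0`. -/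
theorem deriv_eq_zero_of_mem_pAdj {D : Derivation ℤ L L} (hx : D x = 0) {w : L}
    (hw : w ∈ pAdj p x) : D w = 0 :=
  deriv_eq_zero_of_mem_adj D (fun _ he => deriv_eq_zero_of_mem_pPow p D he) hx hw

/-- The kernel of `D` on `L^p(x)` is `L^p` if `D x ≠ 0`. -/
theorem mem_pPow_of_deriv_eq_zero {D : Derivation ℤ L L} (hx : D x ≠ 0) {w : L}
    (hw : w ∈ pAdj p x) (hDw : D w = 0) : w ∈ pPow (L := L) p :=
  mem_of_deriv_eq_zero p (pPow p) (pow_mem_pPow p) D
    (fun _ he => deriv_eq_zero_of_mem_pPow p D he) hx hw hDw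

/-- `L^p(x) ∩ L^p(y) = L^p` when some derivation has `D x ≠ 0`, `D y = 0`. -/
theorem mem_pPow_of_mem_pAdj_of_mem_pAdj {D : Derivation ℤ L L} (hx : D x ≠ 0) (hy : D y = 0)
    {w : L} (hwx : w ∈ pAdj p x) (hwy : w ∈ pAdj p y) : w ∈ pPow (L := L) p :=
  mem_pPow_of_deriv_eq_zero hx hwx (deriv_eq_zero_of_mem_pAdj hy hwy)

/-- The common kernel of `D₁, D₂` on `L^p(x, y)` is `L^p`. -/
theorem mem_pPow_of_deriv_eq_zero₂ (h1x : D₁ x ≠ 0) (h2x : D₂ x = 0) (h2y : D₂ y ≠ 0) {w : L}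
    (hw : w ∈ pAdj₂ p x y) (h1 : D₁ w = 0) (h2 : D₂ w = 0) : w ∈ pPow (L := L) p := by
  have hwx : w ∈ pAdj p x :=
    mem_of_deriv_eq_zero p (pAdj p x) (pow_mem_pAdj p x) D₂
      (fun _ he => deriv_eq_zero_of_mem_pAdj h2x he) h2y hw h2
  exact mem_pPow_of_deriv_eq_zero h1x hwx h1

/-- `D₁` and `D₂` commute on `L^p(x, y)`. -/
theorem deriv_comm_of_mem_pAdj₂ (h1x : D₁ x = 1) (h1y : D₁ y = 0) (h2x : D₂ x = 0)
    (h2y : D₂ y = 1) {w : L} (hw : w ∈ pAdj₂ p x y) : D₁ (D₂ w) = D₂ (D₁ w) := by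
  have hc : ⁅D₁, D₂⁆ w = 0 := by
    refine deriv_eq_zero_of_mem_adj _ (fun e he => ?_) ?_ hw
    · refine deriv_eq_zero_of_mem_pAdj ?_ he
      rw [Derivation.commutator_apply, h2x, h1x, map_zero, Derivation.map_one_eq_zero, sub_zero]
    · rw [Derivation.commutator_apply, h2y, h1y, map_zero, Derivation.map_one_eq_zero, sub_zero]
  rw [Derivation.commutator_apply] at hc
  exact sub_eq_zero.1 hc

end Consequences

/-! ### Explicit form of `E(x)` and linear independence of the powers of `x` -/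

section Explicit

omit [CharP L p] in
/-- `E(x) = { ∑_{i<p} a_i x^i : a_i ∈ E }` for a subfield `E ⊇ L^p`. -/
theorem mem_adj_iff_exists_sum (E : Subfield L) (hE : ∀ a : L, a ^ p ∈ E) (x w : L) :
    w ∈ adj E x ↔ ∃ a : Fin p → L, (∀ i, a i ∈ E) ∧ w = ∑ i, a i * x ^ (i : ℕ) := by
  have hp : p.Prime := Fact.out
  constructor
  · intro hw
    rw [mem_adj_iff] at hw
    have h1 : w ∈ (E⟮x⟯).toSubalgebra := hw
    rw [adjoin_simple_toSubalgebra_of_isAlgebraic (isIntegral_of_pow_mem p E hE x).isAlgebraic,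
      Algebra.adjoin_singleton_eq_range_aeval] at h1
    obtain ⟨q, rfl⟩ := h1
    set m : E[X] := X ^ p - C (⟨x ^ p, hE x⟩ : E) with hm
    have hmon : m.Monic := monic_X_pow_sub_C _ hp.ne_zero
    have hroot : aeval x m = 0 := by
      simp only [hm, aeval_def, eval₂_sub, eval₂_pow, eval₂_X, eval₂_C]
      exact sub_eq_zero.mpr rfl
    have hdeg : (q %ₘ m).natDegree < p := by
      have := natDegree_modByMonic_lt q hmon (by
        intro h1
        have := congrArg natDegree h1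
        rw [hm, natDegree_X_pow_sub_C, natDegree_one] at this
        exact hp.ne_zero this)
      rwa [hm, natDegree_X_pow_sub_C] at this
    have hq : aeval x q = aeval x (q %ₘ m) := (aeval_modByMonic_eq_self_of_root hroot).symm
    refine ⟨fun i => (((q %ₘ m).coeff i : E) : L), fun i => ((q %ₘ m).coeff i).2, ?_⟩
    show (aeval x : E[X] →ₐ[E] L) q = _
    rw [hq, aeval_eq_sum_range' hdeg, Finset.sum_range]
    rfl
  · rintro ⟨a, ha, rfl⟩
    exact sum_mem fun i _ => mul_mem (le_adj E x (ha i)) (pow_mem (self_mem_adj E x) _)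

/-- The powers `1, x, …, x^(p-1)` are linearly independent over `E ⊇ L^p` if `x ∉ E`. -/
theorem eq_zero_of_sum_eq_zero (E : Subfield L) (hE : ∀ a : L, a ^ p ∈ E) {x : L} (hx : x ∉ E)
    (a : Fin p → L) (ha : ∀ i, a i ∈ E) (h : ∑ i, a i * x ^ (i : ℕ) = 0) : ∀ i, a i = 0 := by
  set q : E[X] := ∑ i : Fin p, C (⟨a i, ha i⟩ : E) * X ^ (i : ℕ) with hq
  have haev : aeval x q = 0 := by
    rw [hq, map_sum, ← h]
    refine Finset.sum_congr rfl fun i _ => ?_
    simp only [map_mul, aeval_C, map_pow, aeval_X]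
    rfl
  have hcoeff : ∀ i : Fin p, q.coeff i = ⟨a i, ha i⟩ := by
    intro i
    rw [hq, finsetSum_coeff]
    simp only [coeff_C_mul_X_pow]
    rw [Finset.sum_eq_single i]
    · simp
    · intro j _ hji
      rw [if_neg]
      intro hij
      exact hji (Fin.ext hij.symm)
    · intro hi; exact absurd (Finset.mem_univ i) hi
  have hq0 : q = 0 := by
    by_contra hne
    have h1 := minpoly.degree_le_of_ne_zero E x hne haev
    rw [minpoly_eq_of_notMem p E hE hx, degree_X_pow_sub_C (Fact.out : p.Prime).pos] at h1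
    have h2 : q.degree < (p : WithBot ℕ) := by
      rw [hq]
      exact degree_sum_fin_lt _
    exact absurd h1 (not_le.2 h2)
  intro i
  have := hcoeff i
  rw [hq0, coeff_zero] at this
  exact (congrArg Subtype.val this).symm

/-- `L^p(x) = { ∑_{i<p} a_i^p x^i }`. -/
theorem mem_pAdj_iff (x w : L) :
    w ∈ pAdj p x ↔ ∃ a : Fin p → L, w = ∑ i, a i ^ p * x ^ (i : ℕ) := by
  rw [pAdj, mem_adj_iff_exists_sum p (pPow p) (pow_mem_pPow p)]
  constructor
  · rintro ⟨a, ha, rfl⟩
    choose b hb using fun i => (mem_pPow p).1 (ha i)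
    exact ⟨b, by simp only [hb]⟩
  · rintro ⟨a, rfl⟩
    exact ⟨fun i => a i ^ p, fun i => pow_mem_pPow p (a i), rfl⟩

/-- Linear independence of `1, x, …, x^(p-1)` over `L^p` for `x ∉ L^p`, elementwise form. -/
theorem eq_zero_of_sum_pow_eq_zero {x : L} (hx : x ∉ pPow (L := L) p) (a : Fin p → L)
    (h : ∑ i, a i ^ p * x ^ (i : ℕ) = 0) : ∀ i, a i = 0 := by
  intro i
  have := eq_zero_of_sum_eq_zero p (pPow p) (pow_mem_pPow p) hx (fun i => a i ^ p)
    (fun i => pow_mem_pPow p (a i)) h i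
  exact pow_eq_zero_iff (Fact.out : p.Prime).ne_zero |>.1 this

end Explicit

end Crest.Agent.Helper31.S0010
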