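import Crest.Agent.Helper31.S0010.Deriv

/-!
# The pure-field line lemma (S0010, package LLf, second track)
-/

set_option autoImplicit false

namespace Crest.Agent.Helper31.S0010

variable {L : Type*} [Field L] (p : ℕ) [Fact p.Prime] [CharP L p]

omit [Fact p.Prime] [CharP L p] in
/-- A derivation mapping a set into the subfield it generates preserves that subfield. -/
theorem deriv_mem_closure (D : Derivation ℤ L L) {S : Set L}
    (hS : ∀ s ∈ S, D s ∈ Subfield.closure S) {w : L} (hw : w ∈ Subfield.closure S) :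
    D w ∈ Subfield.closure S := by
  induction hw using Subfield.closure_induction with
  | mem x hx => exact hS x hx
  | one => rw [D.map_one_eq_zero]; exact zero_mem _
  | add x y _ _ hx hy => rw [map_add]; exact add_mem hx hy
  | neg x _ hx => rw [map_neg]; exact neg_mem hx
  | inv x hx' hx =>
    rw [Derivation.leibniz_inv, smul_eq_mul]
    exact mul_mem (neg_mem (pow_mem (inv_mem hx') 2)) hx
  | mul x y hx' hy' hx hy =>
    rw [Derivation.leibniz, smul_eq_mul, smul_eq_mul]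
    exact add_mem (mul_mem hx' hy) (mul_mem hy' hx)

/-- A derivation with `D x ∈ L^p(x)` maps `L^p(x)` into itself. -/
theorem deriv_mem_pAdj (D : Derivation ℤ L L) {x : L} (hx : D x ∈ pAdj p x) {w : L}
    (hw : w ∈ pAdj p x) : D w ∈ pAdj p x := by
  refine deriv_mem_closure D ?_ hw
  rintro s (hs | rfl)
  · rw [deriv_eq_zero_of_mem_pPow p D hs]; exact zero_mem _
  · exact hx

/-- **Jacobian relation.** If `v ∈ L^p(u)` then `D₁ u * D₂ v = D₂ u * D₁ v`. -/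
theorem jacobian_of_mem_pAdj (D₁ D₂ : Derivation ℤ L L) {u v : L} (hv : v ∈ pAdj p u) :
    D₁ u * D₂ v = D₂ u * D₁ v := by
  have h := deriv_eq_zero_of_mem_pAdj (p := p) (D := D₁ u • D₂ - D₂ u • D₁) (x := u)
    (by simp [Derivation.sub_apply, Derivation.smul_apply, mul_comm]) hv
  simp only [Derivation.sub_apply, Derivation.smul_apply, smul_eq_mul] at h
  exact sub_eq_zero.1 h

theorem natCast_mem_pPow (n : ℕ) : (n : L) ∈ pPow (L := L) p := natCast_mem _ n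

/-- **(Eig).** Eigenvectors of the Euler operator on `L^p(t)`. -/
theorem eig (D : Derivation ℤ L L) {t w κ : L} (hDt : D t ≠ 0) (hw : w ∈ pAdj p t)
    (hw0 : w ≠ 0) (hκ : κ ∈ pPow (L := L) p) (h : D w * t = κ * D t * w) :
    ∃ m : ℕ, m < p ∧ κ = (m : L) ∧ w / t ^ m ∈ pPow (L := L) p := by
  have hp : p.Prime := Fact.out
  have ht : t ∉ pPow (L := L) p := fun ht => hDt (deriv_eq_zero_of_mem_pPow p D ht)
  have ht0 : t ≠ 0 := fun h0 => ht (h0 ▸ zero_mem _)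
  obtain ⟨a, rfl⟩ := (mem_pAdj_iff p t w).1 hw
  -- derivative of the sum
  have hD : D (∑ i : Fin p, a i ^ p * t ^ (i : ℕ)) * t
      = D t * ∑ i : Fin p, ((i : ℕ) : L) * (a i ^ p * t ^ (i : ℕ)) := by
    rw [map_sum, Finset.sum_mul, Finset.mul_sum]
    refine Finset.sum_congr rfl fun i _ => ?_
    rw [Derivation.leibniz, deriv_pow_p p D, smul_zero, add_zero, Derivation.leibniz_pow,
      smul_eq_mul, smul_eq_mul, nsmul_eq_mul]
    rcases Nat.eq_zero_or_pos (i : ℕ) with h0 | hpos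
    · simp [h0]
    · have : t ^ ((i : ℕ) - 1) * t = t ^ (i : ℕ) := by
        rw [← pow_succ, Nat.sub_add_cancel hpos]
      rw [← this]; ring
  rw [hD] at h
  have hsum : ∑ i : Fin p, ((((i : ℕ) : L) - κ) * a i ^ p) * t ^ (i : ℕ) = 0 := by
    have h2 : D t * (∑ i : Fin p, ((i : ℕ) : L) * (a i ^ p * t ^ (i : ℕ))
        - κ * ∑ i : Fin p, a i ^ p * t ^ (i : ℕ)) = 0 := by
      rw [mul_sub, h]; ring
    have h3 := (mul_eq_zero.1 h2).resolve_left hDt
    rw [Finset.mul_sum, ← Finset.sum_sub_distrib] at h3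
    rw [← h3]
    refine Finset.sum_congr rfl fun i _ => ?_
    ring
  have hcoef := eq_zero_of_sum_eq_zero p (pPow p) (pow_mem_pPow p) ht
    (fun i => (((i : ℕ) : L) - κ) * a i ^ p)
    (fun i => mul_mem (sub_mem (natCast_mem_pPow p _) hκ) (pow_mem_pPow p (a i))) hsum
  -- some coefficient is nonzero
  obtain ⟨m, hm⟩ : ∃ m : Fin p, a m ≠ 0 := by
    by_contra hall
    simp only [not_exists, not_not] at hall
    apply hw0
    refine Finset.sum_eq_zero fun i _ => ?_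
    rw [hall i, zero_pow hp.ne_zero, zero_mul]
  have hκm : κ = ((m : ℕ) : L) := by
    have := hcoef m
    rcases mul_eq_zero.1 this with h1 | h1
    · exact (sub_eq_zero.1 h1).symm
    · exact absurd (pow_eq_zero_iff hp.ne_zero |>.1 h1) hm
  have hzero : ∀ i : Fin p, i ≠ m → a i = 0 := by
    intro i hi
    have := hcoef i
    rcases mul_eq_zero.1 this with h1 | h1
    · exfalso
      rw [hκm, sub_eq_zero] at h1
      have := CharP.natCast_injOn_Iio L p (Set.mem_Iio.2 i.2) (Set.mem_Iio.2 m.2) h1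
      exact hi (Fin.ext this)
    · exact pow_eq_zero_iff hp.ne_zero |>.1 h1
  refine ⟨m, m.2, hκm, ?_⟩
  rw [Finset.sum_eq_single m (fun i _ hi => by rw [hzero i hi, zero_pow hp.ne_zero, zero_mul])
    (fun hm' => absurd (Finset.mem_univ m) hm')]
  rw [mul_div_assoc, div_self (pow_ne_zero _ ht0), mul_one]
  exact pow_mem_pPow p (a m)


/-- the relation (**) for one index -/
theorem star_rel (D₁ D₂ : Derivation ℤ L L) {a b h : L} (ha : a ≠ 0) (hh : h ≠ 0)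
    (ha1 : D₁ a ≠ 0) (hb2 : D₂ b ≠ 0) (ha2 : D₂ a = 0) (hb1 : D₁ b = 0)
    (hJ : h / a ∈ pAdj p (b / a)) :
    a / D₁ a * (D₁ h / h) + b / D₂ b * (D₂ h / h) = 1 := by
  have jac := jacobian_of_mem_pAdj p D₁ D₂ hJ
  rw [Derivation.leibniz_div, Derivation.leibniz_div, Derivation.leibniz_div,
    Derivation.leibniz_div, ha2, hb1] at jac
  simp only [smul_eq_mul, mul_zero, sub_zero, zero_sub] at jac
  field_simp at jac ⊢
  linear_combination (-1 : L) * jac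

/-- equal logarithmic derivatives inside `L^p(x)` -/
theorem div_mem_pPow_of_eq (D : Derivation ℤ L L) {x a a' : L} (hx : D x ≠ 0)
    (ha : a ∈ pAdj p x) (ha' : a' ∈ pAdj p x) (hd : D a ≠ 0) (hd' : D a' ≠ 0)
    (h : a / D a = a' / D a') : a / a' ∈ pPow (L := L) p := by
  apply mem_pPow_of_deriv_eq_zero hx (div_mem ha ha')
  rw [Derivation.leibniz_div]
  have h1 : a' * D a - a * D a' = 0 := by
    field_simp at h
    linear_combination (-1 : L) * h
  simp only [smul_eq_mul, h1, mul_zero]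

/-- pure algebra of the line lemma: from (**) to the normal form -/
theorem line_alg {ι : Type*} (c₀ c₁ : ι) (F G : ι → L) (H₁ H₂ : L)
    (star : ∀ c, F c * H₁ + G c * H₂ = 1) (hF : F c₁ ≠ F c₀) (hG : G c₁ ≠ G c₀) :
    ∃ (A B P Q : L) (lam : ι → L), A ≠ 0 ∧ B ≠ 0 ∧ A = F c₁ - F c₀ ∧ B = -(G c₁ - G c₀) ∧
      P = F c₀ / A ∧ Q = G c₀ / B ∧
      (∀ c, lam c = (F c - F c₀) / A) ∧ (∀ c, lam c = -(G c - G c₀) / B) ∧
      (∀ c, F c = A * (P + lam c)) ∧ (∀ c, G c = B * (Q - lam c)) ∧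
      P + Q ≠ 0 ∧ H₁ = 1 / (A * (P + Q)) ∧ H₂ = 1 / (B * (P + Q)) := by
  have hA : F c₁ - F c₀ ≠ 0 := sub_ne_zero.2 hF
  have hB : -(G c₁ - G c₀) ≠ 0 := neg_ne_zero.2 (sub_ne_zero.2 hG)
  have diff : ∀ c, (F c - F c₀) * H₁ + (G c - G c₀) * H₂ = 0 := fun c => by
    linear_combination star c - star c₀
  have hH₂ : H₂ ≠ 0 := by
    intro h0
    have h1 := diff c₁
    rw [h0, mul_zero, add_zero] at h1
    have h2 : H₁ = 0 := (mul_eq_zero.1 h1).resolve_left hA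
    have h3 := star c₀
    rw [h0, h2] at h3
    simp at h3
  have AH : (F c₁ - F c₀) * H₁ = -(G c₁ - G c₀) * H₂ := by linear_combination diff c₁
  have hH₁ : H₁ ≠ 0 := by
    intro h0
    rw [h0, mul_zero] at AH
    exact (mul_ne_zero hB hH₂) AH.symm
  have lamG : ∀ c, (F c - F c₀) / (F c₁ - F c₀) = -(G c - G c₀) / -(G c₁ - G c₀) := by
    intro c
    have h1 : ((F c - F c₀) * -(G c₁ - G c₀) + (G c - G c₀) * (F c₁ - F c₀)) * H₂ = 0 := by
      linear_combination (F c₁ - F c₀) * diff c - (F c - F c₀) * AH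
    have h2 := (mul_eq_zero.1 h1).resolve_right hH₂
    rw [div_eq_div_iff hA hB]
    linear_combination h2
  refine ⟨F c₁ - F c₀, -(G c₁ - G c₀), F c₀ / (F c₁ - F c₀), G c₀ / -(G c₁ - G c₀),
    fun c => (F c - F c₀) / (F c₁ - F c₀), hA, hB, rfl, rfl, rfl, rfl, fun c => rfl, lamG,
    fun c => by field_simp; ring, fun c => by
      show G c = -(G c₁ - G c₀) * (G c₀ / -(G c₁ - G c₀) - (F c - F c₀) / (F c₁ - F c₀))
      rw [lamG c]; field_simp; ring, ?_, ?_, ?_⟩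
  all_goals
    have e1 : (F c₁ - F c₀) * H₁ * (F c₀ / (F c₁ - F c₀)) = F c₀ * H₁ := by field_simp
    have e2 : (F c₁ - F c₀) * H₁ * (G c₀ / -(G c₁ - G c₀)) = G c₀ * H₂ := by
      rw [AH]; field_simp
    have PQ : (F c₁ - F c₀) * H₁ * (F c₀ / (F c₁ - F c₀) + G c₀ / -(G c₁ - G c₀)) = 1 := by
      linear_combination e1 + e2 + star c₀
    have PQne : F c₀ / (F c₁ - F c₀) + G c₀ / -(G c₁ - G c₀) ≠ 0 := by
      intro h0; rw [h0, mul_zero] at PQ; exact zero_ne_one PQ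
  · exact PQne
  · rw [eq_div_iff (mul_ne_zero hA PQne)]; linear_combination PQ
  · rw [eq_div_iff (mul_ne_zero hB PQne)]
    have : -(G c₁ - G c₀) * H₂ * (F c₀ / (F c₁ - F c₀) + G c₀ / -(G c₁ - G c₀)) = 1 := by
      rw [← AH]; exact PQ
    linear_combination this



omit [Fact p.Prime] [CharP L p] in
theorem integ (D₁ D₂ : Derivation ℤ L L) {h : L} (hcomm : D₁ (D₂ h) = D₂ (D₁ h)) :
    D₂ (D₁ h / h) = D₁ (D₂ h / h) := by
  rw [Derivation.leibniz_div, Derivation.leibniz_div, hcomm]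
  simp only [smul_eq_mul]; ring

omit [Fact p.Prime] [CharP L p] in
theorem kappa_rel (D₁ D₂ : Derivation ℤ L L) {A B P Q H₁ H₂ : L} (hA : A ≠ 0) (hB : B ≠ 0)
    (hPQ : P + Q ≠ 0) (hA2 : D₂ A = 0) (hP2 : D₂ P = 0) (hB1 : D₁ B = 0) (hQ1 : D₁ Q = 0)
    (hH1 : H₁ = 1 / (A * (P + Q))) (hH2 : H₂ = 1 / (B * (P + Q))) (hint : D₂ H₁ = D₁ H₂) :
    A * D₁ P = B * D₂ Q := by
  rw [hH1, hH2, Derivation.leibniz_div, Derivation.leibniz_div] at hint
  simp only [Derivation.leibniz, map_add, hA2, hP2, hB1, hQ1, Derivation.map_one_eq_zero,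
    smul_eq_mul, mul_zero, zero_add, add_zero, zero_sub, one_mul] at hint
  field_simp at hint
  linear_combination hint

/-- **The pure-field line lemma (LLf).** -/
theorem lineLemma {ι : Type*} [Infinite ι] (c₀ c₁ : ι) (hc : c₁ ≠ c₀) {x y : L}
    (hxy : PIndep p x y) (φ γ : ι → L) (h : L) (hh : h ≠ 0) (hφ0 : φ c₀ = x) (hγ0 : γ c₀ = y)
    (hφ : ∀ c, φ c ∈ pAdj p x) (hφ' : ∀ c, φ c ∉ pPow (L := L) p)
    (hγ : ∀ c, γ c ∈ pAdj p y) (hγ' : ∀ c, γ c ∉ pPow (L := L) p)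
    (hJ : ∀ c, h / φ c ∈ pAdj p (γ c / φ c))
    (hφi : ∀ c c', φ c / φ c' ∈ pPow (L := L) p → c = c')
    (hγi : ∀ c c', γ c / γ c' ∈ pPow (L := L) p → c = c') :
    ∃ m : ℕ, 0 < m ∧ m < p ∧ ∃ (P Q : L) (lam : ι → L),
      P ∈ pAdj p x ∧ P ∉ pPow (L := L) p ∧ Q ∈ pAdj p y ∧ Q ∉ pPow (L := L) p ∧
      lam c₀ = 0 ∧ lam c₁ = 1 ∧ (∀ c, lam c ∈ pPow (L := L) p) ∧ Function.Injective lam ∧
      (∀ c, P + lam c ≠ 0 ∧ φ c / (P + lam c) ^ m ∈ pPow (L := L) p) ∧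
      (∀ c, Q - lam c ≠ 0 ∧ γ c / (Q - lam c) ^ m ∈ pPow (L := L) p) ∧
      P + Q ≠ 0 ∧ h / (P + Q) ^ m ∈ pPow (L := L) p := by
  obtain ⟨D₁, D₂, h1x, h1y, h2x, h2y⟩ := exists_derivation_pair p hxy
  have hx1 : D₁ x ≠ 0 := by rw [h1x]; exact one_ne_zero
  have hy2 : D₂ y ≠ 0 := by rw [h2y]; exact one_ne_zero
  have d1E2 : ∀ {w : L}, w ∈ pAdj p y → D₁ w = 0 := fun hw => deriv_eq_zero_of_mem_pAdj h1y hw
  have d2E1 : ∀ {w : L}, w ∈ pAdj p x → D₂ w = 0 := fun hw => deriv_eq_zero_of_mem_pAdj h2x hw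
  have k1 : ∀ {w : L}, w ∈ pAdj p x → D₁ w = 0 → w ∈ pPow (L := L) p :=
    fun hw h0 => mem_pPow_of_deriv_eq_zero hx1 hw h0
  have k2 : ∀ {w : L}, w ∈ pAdj p y → D₂ w = 0 → w ∈ pPow (L := L) p :=
    fun hw h0 => mem_pPow_of_deriv_eq_zero hy2 hw h0
  have m1 : ∀ {w : L}, w ∈ pAdj p x → D₁ w ∈ pAdj p x :=
    fun hw => deriv_mem_pAdj p D₁ (by rw [h1x]; exact one_mem _) hw
  have m2 : ∀ {w : L}, w ∈ pAdj p y → D₂ w ∈ pAdj p y :=
    fun hw => deriv_mem_pAdj p D₂ (by rw [h2y]; exact one_mem _) hw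
  have dP1 : ∀ {w : L}, w ∈ pPow (L := L) p → D₁ w = 0 :=
    fun hw => deriv_eq_zero_of_mem_pPow p D₁ hw
  have dP2 : ∀ {w : L}, w ∈ pPow (L := L) p → D₂ w = 0 :=
    fun hw => deriv_eq_zero_of_mem_pPow p D₂ hw
  have φne : ∀ c, φ c ≠ 0 := fun c h0 => hφ' c (h0 ▸ zero_mem _)
  have γne : ∀ c, γ c ≠ 0 := fun c h0 => hγ' c (h0 ▸ zero_mem _)
  have dφ : ∀ c, D₁ (φ c) ≠ 0 := fun c h0 => hφ' c (k1 (hφ c) h0)
  have dγ : ∀ c, D₂ (γ c) ≠ 0 := fun c h0 => hγ' c (k2 (hγ c) h0)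
  obtain ⟨F, hF⟩ : ∃ F : ι → L, ∀ c, F c = φ c / D₁ (φ c) := ⟨_, fun _ => rfl⟩
  obtain ⟨G, hG⟩ : ∃ G : ι → L, ∀ c, G c = γ c / D₂ (γ c) := ⟨_, fun _ => rfl⟩
  have FE : ∀ c, F c ∈ pAdj p x := fun c => by rw [hF]; exact div_mem (hφ c) (m1 (hφ c))
  have GE : ∀ c, G c ∈ pAdj p y := fun c => by rw [hG]; exact div_mem (hγ c) (m2 (hγ c))
  have Fne : ∀ c, F c ≠ 0 := fun c => by rw [hF]; exact div_ne_zero (φne c) (dφ c)
  have Gne : ∀ c, G c ≠ 0 := fun c => by rw [hG]; exact div_ne_zero (γne c) (dγ c)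
  have star : ∀ c, F c * (D₁ h / h) + G c * (D₂ h / h) = 1 := fun c => by
    rw [hF, hG]
    exact star_rel p D₁ D₂ (φne c) hh (dφ c) (dγ c) (d2E1 (hφ c)) (d1E2 (hγ c)) (hJ c)
  have Finj : ∀ c c', F c = F c' → c = c' := fun c c' hcc => by
    rw [hF, hF] at hcc
    exact hφi c c' (div_mem_pPow_of_eq p D₁ hx1 (hφ c) (hφ c') (dφ c) (dφ c') hcc)
  have Ginj : ∀ c c', G c = G c' → c = c' := fun c c' hcc => by
    rw [hG, hG] at hcc
    exact hγi c c' (div_mem_pPow_of_eq p D₂ hy2 (hγ c) (hγ c') (dγ c) (dγ c') hcc)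
  obtain ⟨A, B, P, Q, lam, hA, hB, hAdef, hBdef, hPdef, hQdef, hlamF, hlamG, hFc, hGc, hPQ,
      hH1, hH2⟩ :=
    line_alg c₀ c₁ F G (D₁ h / h) (D₂ h / h) star (fun e => hc (Finj _ _ e))
      (fun e => hc (Ginj _ _ e))
  have AE : A ∈ pAdj p x := by rw [hAdef]; exact sub_mem (FE _) (FE _)
  have BE : B ∈ pAdj p y := by rw [hBdef]; exact neg_mem (sub_mem (GE _) (GE _))
  have PE : P ∈ pAdj p x := by rw [hPdef]; exact div_mem (FE _) AE
  have QE : Q ∈ pAdj p y := by rw [hQdef]; exact div_mem (GE _) BE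
  have lamP : ∀ c, lam c ∈ pPow (L := L) p := fun c => by
    apply k1
    · rw [hlamF]; exact div_mem (sub_mem (FE _) (FE _)) AE
    · apply d1E2; rw [hlamG]; exact div_mem (neg_mem (sub_mem (GE _) (GE _))) BE
  have lam0 : lam c₀ = 0 := by rw [hlamF, sub_self, zero_div]
  have lam1 : lam c₁ = 1 := by rw [hlamF, ← hAdef, div_self hA]
  have lamInj : Function.Injective lam := by
    intro c c' hcc
    apply Finj
    rw [hFc c, hFc c', hcc]
  have hxy2 : ∀ {w : L}, w ∈ pAdj p y → w ∈ pAdj₂ p x y := fun hw =>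
    adj_le ((pPow_le_pAdj p x).trans (pAdj_le_pAdj₂ p x y)) (self_mem_adj _ _) hw
  have hM : h ∈ pAdj₂ p x y := by
    have h1 : h / φ c₀ ∈ pAdj₂ p x y := by
      refine adj_le ((pPow_le_pAdj p x).trans (pAdj_le_pAdj₂ p x y)) ?_ (hJ c₀)
      rw [hφ0, hγ0]
      exact div_mem (self_mem_adj _ _) (pAdj_le_pAdj₂ p x y (self_mem_pAdj p x))
    have h2 : h = h / φ c₀ * φ c₀ := (div_mul_cancel₀ h (φne c₀)).symm
    rw [h2]
    exact mul_mem h1 (pAdj_le_pAdj₂ p x y (hφ c₀))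
  have hcomm : D₁ (D₂ h) = D₂ (D₁ h) := deriv_comm_of_mem_pAdj₂ h1x h1y h2x h2y hM
  have hint : D₂ (D₁ h / h) = D₁ (D₂ h / h) := integ D₁ D₂ hcomm
  have hκ : A * D₁ P = B * D₂ Q :=
    kappa_rel D₁ D₂ hA hB hPQ (d2E1 AE) (d2E1 PE) (d1E2 BE) (d1E2 QE) hH1 hH2 hint
  have κE : A * D₁ P ∈ pPow (L := L) p := by
    apply k1 (mul_mem AE (m1 PE))
    apply d1E2; rw [hκ]; exact mul_mem BE (m2 QE)
  have hFc0 : F c₀ = x := by rw [hF, hφ0, h1x, div_one]
  have hAP : A * P = x := by rw [hPdef, mul_div_cancel₀ _ hA, hFc0]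
  have x0 : x ≠ 0 := fun h0 => hxy.1 (h0 ▸ zero_mem _)
  have P0 : P ≠ 0 := fun h0 => x0 (by rw [← hAP, h0, mul_zero])
  have Plam : ∀ c, P + lam c ≠ 0 := fun c h0 => Fne c (by rw [hFc c, h0, mul_zero])
  have Qlam : ∀ c, Q - lam c ≠ 0 := fun c h0 => Gne c (by rw [hGc c, h0, mul_zero])
  have dφeq : ∀ c, D₁ (φ c) * (A * (P + lam c)) = φ c := fun c => by
    rw [← hFc c, hF, mul_div_cancel₀ _ (dφ c)]
  have dγeq : ∀ c, D₂ (γ c) * (B * (Q - lam c)) = γ c := fun c => by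
    rw [← hGc c, hG, mul_div_cancel₀ _ (dγ c)]
  -- κ ≠ 0
  have hκ0 : A * D₁ P ≠ 0 := by
    intro h0
    have hDP : D₁ P = 0 := (mul_eq_zero.1 h0).resolve_left hA
    have PP : P ∈ pPow (L := L) p := k1 PE hDP
    have key : ∀ c, ∃ m : ℕ, m < p ∧ P / (P + lam c) = (m : L) := by
      intro c
      obtain ⟨m, hm, hm', -⟩ := eig p D₁ hx1 (hφ c) (φne c)
        (div_mem PP (add_mem PP (lamP c))) (κ := P / (P + lam c)) (by
          rw [h1x, mul_one, ← hAP]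
          have e := dφeq c
          have := Plam c
          field_simp
          linear_combination e)
      exact ⟨m, hm, hm'⟩
    choose mf hmf hmf' using key
    apply not_injective_infinite_finite (fun c => (⟨mf c, hmf c⟩ : Fin p))
    intro c c' hcc
    have hm : mf c = mf c' := congrArg Fin.val hcc
    apply lamInj
    have e : P / (P + lam c) = P / (P + lam c') := by rw [hmf' c, hmf' c', hm]
    rw [div_eq_div_iff (Plam c) (Plam c')] at e
    have e2 := mul_left_cancel₀ P0 e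
    linear_combination (-1 : L) * e2
  have hDP : D₁ P ≠ 0 := fun h0 => hκ0 (by rw [h0, mul_zero])
  have hDQ : D₂ Q ≠ 0 := fun h0 => hκ0 (by rw [hκ, h0, mul_zero])
  have PnP : P ∉ pPow (L := L) p := fun hP => hDP (dP1 hP)
  have QnP : Q ∉ pPow (L := L) p := fun hQ => hDQ (dP2 hQ)
  have κinvP : (A * D₁ P)⁻¹ ∈ pPow (L := L) p := inv_mem κE
  have keyφ : ∀ c, ∃ m : ℕ, m < p ∧ (A * D₁ P)⁻¹ = (m : L) ∧
      φ c / (P + lam c) ^ m ∈ pPow (L := L) p := by
    intro c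
    have tE : P + lam c ∈ pAdj p x := add_mem PE (pPow_le_pAdj p x (lamP c))
    have Dt : D₁ (P + lam c) = D₁ P := by rw [map_add, dP1 (lamP c), add_zero]
    have tn : P + lam c ∉ pPow (L := L) p := fun ht => hDP (by rw [← Dt]; exact dP1 ht)
    have xt : x ∈ pAdj p (P + lam c) := exchange p (pPow p) (pow_mem_pPow p) tE tn
    have φt : φ c ∈ pAdj p (P + lam c) := adj_le (pPow_le_pAdj p _) xt (hφ c)
    exact eig p D₁ (by rw [Dt]; exact hDP) φt (φne c) κinvP (by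
      rw [Dt]
      have e := dφeq c
      have := Plam c
      field_simp
      linear_combination e)
  have keyγ : ∀ c, ∃ m : ℕ, m < p ∧ (A * D₁ P)⁻¹ = (m : L) ∧
      γ c / (Q - lam c) ^ m ∈ pPow (L := L) p := by
    intro c
    have tE : Q - lam c ∈ pAdj p y := sub_mem QE (pPow_le_pAdj p y (lamP c))
    have Dt : D₂ (Q - lam c) = D₂ Q := by rw [map_sub, dP2 (lamP c), sub_zero]
    have tn : Q - lam c ∉ pPow (L := L) p := fun ht => hDQ (by rw [← Dt]; exact dP2 ht)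
    have yt : y ∈ pAdj p (Q - lam c) := exchange p (pPow p) (pow_mem_pPow p) tE tn
    have γt : γ c ∈ pAdj p (Q - lam c) := adj_le (pPow_le_pAdj p _) yt (hγ c)
    exact eig p D₂ (by rw [Dt]; exact hDQ) γt (γne c) κinvP (by
      rw [Dt, hκ]
      have e := dγeq c
      have := Qlam c
      field_simp
      linear_combination e)
  obtain ⟨m, hm, hmκ, -⟩ := keyφ c₀
  have m_unique : ∀ m' : ℕ, m' < p → (A * D₁ P)⁻¹ = (m' : L) → m' = m := fun m' hm' e =>
    CharP.natCast_injOn_Iio L p (Set.mem_Iio.2 hm') (Set.mem_Iio.2 hm) (by rw [← e, ← hmκ])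
  have m0 : 0 < m := by
    rcases Nat.eq_zero_or_pos m with h0 | h0
    · exfalso; rw [h0, Nat.cast_zero] at hmκ; exact inv_ne_zero hκ0 hmκ
    · exact h0
  have hm1 : (P + Q) ^ m = (P + Q) ^ (m - 1) * (P + Q) := by
    rw [← pow_succ, Nat.sub_add_cancel m0]
  have e1 : D₁ h * (A * (P + Q)) = h := by
    have := hH1
    rw [div_eq_div_iff hh (mul_ne_zero hA hPQ)] at this
    linear_combination this
  have e2 : D₂ h * (B * (P + Q)) = h := by
    have := hH2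
    rw [div_eq_div_iff hh (mul_ne_zero hB hPQ)] at this
    linear_combination this
  have e3 : (m : L) * (A * D₁ P) = 1 := by rw [← hmκ, inv_mul_cancel₀ hκ0]
  refine ⟨m, m0, hm, P, Q, lam, PE, PnP, QE, QnP, lam0, lam1, lamP, lamInj, ?_, ?_, hPQ, ?_⟩
  · intro c
    obtain ⟨m', hm', e, hmem⟩ := keyφ c
    rw [m_unique m' hm' e] at hmem
    exact ⟨Plam c, hmem⟩
  · intro c
    obtain ⟨m', hm', e, hmem⟩ := keyγ c
    rw [m_unique m' hm' e] at hmem
    exact ⟨Qlam c, hmem⟩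
  · apply mem_pPow_of_deriv_eq_zero₂ hx1 h2x hy2
      (div_mem hM (pow_mem (add_mem (pAdj_le_pAdj₂ p x y PE) (hxy2 QE)) m))
    · rw [Derivation.leibniz_div, Derivation.leibniz_pow, map_add, d1E2 QE, add_zero]
      have : (P + Q) ^ m * D₁ h - h * ((m : L) * ((P + Q) ^ (m - 1) * D₁ P)) = 0 := by
        rw [hm1]
        linear_combination ((m : L) * (P + Q) ^ (m - 1) * D₁ P) * e1
          - ((P + Q) ^ (m - 1) * (P + Q) * D₁ h) * e3
      simp only [smul_eq_mul, nsmul_eq_mul, this, mul_zero]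
    · rw [Derivation.leibniz_div, Derivation.leibniz_pow, map_add, d2E1 PE, zero_add]
      have e3' : (m : L) * (B * D₂ Q) = 1 := by rw [← hκ]; exact e3
      have : (P + Q) ^ m * D₂ h - h * ((m : L) * ((P + Q) ^ (m - 1) * D₂ Q)) = 0 := by
        rw [hm1]
        linear_combination ((m : L) * (P + Q) ^ (m - 1) * D₂ Q) * e2
          - ((P + Q) ^ (m - 1) * (P + Q) * D₂ h) * e3'
      simp only [smul_eq_mul, nsmul_eq_mul, this, mul_zero]

end Crest.Agent.Helper31.S0010
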